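import Crest.Agent.R246.Defs

/-! Row 246, block J2: two-colouring of the complement of a smooth cone (monodromy argument). -/

set_option autoImplicit false
set_option linter.unusedSectionVars false

open Metric Filter Topology Set Module
open scoped RealInnerProductSpace

noncomputable section

namespace Crest.Agent.R246.J2

variable {E : Type} [NormedAddCommGroup E] [InnerProductSpace ℝ E] [FiniteDimensional ℝ E]
  {C U U' : Set E} {p : E} {f f' s s' : E → ℝ}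

theorem loc_neg (h : LocAt C p f U) : LocAt C p (-f) U := by
  have e : gradient (-f) = -gradient f := funext fun y => by simp [gradient, fderiv_neg]
  have e' : ∀ y, hess (-f) y = -hess f y := fun y => by rw [hess, e, fderiv_neg, hess]
  refine ⟨h.isOpen, h.mem, h.smooth.neg, fun y hy => by simpa [e] using h.grad_ne y hy,
    fun y hy => by simpa using h.zero_iff y hy, fun y hy hC => ?_⟩
  have := h.minimal y hy hC
  simp only [lap, trc] at this
  simp [lap, trc, e, e', this]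

theorem col_neg (h : LocCol C s p) : LocCol C (-s) p := by
  obtain ⟨f, U, h1, h2⟩ := h
  exact ⟨-f, U, loc_neg h1, fun y hy hC => by simpa using h2 y hy hC⟩

theorem col_congr (h : LocCol C s p) (e : ∀ᶠ y in 𝓝 p, y ∉ C → s' y = s y) : LocCol C s' p := by
  obtain ⟨f, U, h1, h2⟩ := h
  obtain ⟨W, hW, ho, hp⟩ := _root_.eventually_nhds_iff.1 e
  exact ⟨f, U ∩ W, ⟨h1.isOpen.inter ho, ⟨h1.mem, hp⟩, h1.smooth.mono inter_subset_left,
    fun y hy => h1.grad_ne y hy.1, fun y hy => h1.zero_iff y hy.1, fun y hy => h1.minimal y hy.1⟩,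
    fun y hy hC => hW y hy.2 hC ▸ h2 y hy.1 hC⟩

theorem loc_freq (h : LocAt C p f U) : ∃ᶠ y in 𝓝 p, y ∉ C := fun hc => by
  have e : f =ᶠ[𝓝 p] fun _ => 0 := by
    filter_upwards [hc, h.isOpen.mem_nhds h.mem] with y h1 h2 using (h.zero_iff y h2).1 (not_not.1 h1)
  exact h.grad_ne p h.mem (e.gradient_eq.trans (gradient_fun_const _ _))

theorem loc_mono (h : LocAt C p f U) {v : E} (hv : 0 < ⟪gradient f p, v⟫) :
    ∀ᶠ δ in 𝓝[>] (0 : ℝ), ∀ᶠ y in 𝓝 p, (∀ t ∈ Icc (-δ) δ, y + t • v ∈ U) ∧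
      StrictMonoOn (fun t : ℝ => f (y + t • v)) (Icc (-δ) δ) := by
  have h1 : ∀ᶠ y in 𝓝 (p + (0 : ℝ) • v), y ∈ U ∧ 0 < fderiv ℝ f y v := by
    rw [zero_smul, add_zero]
    refine (h.isOpen.eventually_mem h.mem).and (ContinuousAt.eventually_lt continuousAt_const
      ((((h.smooth.continuousOn_fderiv_of_isOpen h.isOpen (by simp)).continuousAt
        (h.isOpen.mem_nhds h.mem))).clm_apply continuousAt_const) ?_)
    rwa [← inner_gradient_left]
  have h2 := ((by fun_prop : Continuous fun z : E × ℝ => z.1 + z.2 • v).tendsto (p, 0)).eventually h1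
  rw [nhds_prod_eq, eventually_prod_iff] at h2
  obtain ⟨A, hA, B, hB, h2⟩ := h2
  obtain ⟨ε, hε, hB⟩ := Metric.eventually_nhds_iff.1 hB
  filter_upwards [Ioo_mem_nhdsGT hε] with δ hδ
  filter_upwards [hA] with y hy
  have h3 : ∀ t ∈ Icc (-δ) δ, y + t • v ∈ U ∧ 0 < fderiv ℝ f (y + t • v) v := fun t ht =>
    h2 hy (hB (by rw [dist_zero_right]; exact (abs_le.2 ht).trans_lt hδ.2))
  have h4 : ∀ t ∈ Icc (-δ) δ, HasDerivAt (fun t : ℝ => f (y + t • v)) (fderiv ℝ f (y + t • v) v) t :=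
    fun t ht => ((h.smooth.contDiffAt (h.isOpen.mem_nhds (h3 t ht).1)).differentiableAt
      (by simp)).hasFDerivAt.comp_hasDerivAt t (by simpa using ((hasDerivAt_id t).smul_const v).const_add y)
  exact ⟨fun t ht => (h3 t ht).1, strictMonoOn_of_deriv_pos (convex_Icc _ _)
    (fun t ht => (h4 t ht).continuousAt.continuousWithinAt) fun t ht =>
      (h4 t (interior_subset ht)).deriv ▸ (h3 t (interior_subset ht)).2⟩

/-- two defining functions increasing in the same direction have the same sign near `p` -/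
theorem same_sign (h : LocAt C p f U) (h' : LocAt C p f' U') (hp : p ∈ C) {v : E}
    (hv : 0 < ⟪gradient f p, v⟫) (hv' : 0 < ⟪gradient f' p, v⟫) :
    ∀ᶠ y in 𝓝 p, y ∉ C → 0 < f y * f' y := by
  obtain ⟨δ, ⟨h1, h2⟩, hδ⟩ := (((loc_mono h hv).and (loc_mono h' hv')).and self_mem_nhdsWithin).exists
  have hδ : 0 < δ := hδ
  have h0 : (0 : ℝ) ∈ Icc (-δ) δ := ⟨by linarith, hδ.le⟩
  have hl : -δ ∈ Icc (-δ) δ := ⟨le_rfl, by linarith⟩
  have hr : δ ∈ Icc (-δ) δ := ⟨by linarith, le_rfl⟩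
  have hc : ∀ t ∈ Icc (-δ) δ, ContinuousAt (fun y => f (y + t • v)) p := fun t ht =>
    (h.smooth.continuousOn.continuousAt (h.isOpen.mem_nhds (h1.self_of_nhds.1 t ht))).comp
      (f := fun y => y + t • v) (by fun_prop)
  have hf0 : f (p + (0 : ℝ) • v) = 0 := by simpa using (h.zero_iff p h.mem).1 hp
  filter_upwards [h1, h2, (hc _ hl).eventually_lt (continuousAt_const (y := 0))
    ((h1.self_of_nhds.2 hl h0 (by linarith)).trans_eq hf0), (continuousAt_const (y := 0)).eventually_lt (hc _ hr)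
    (hf0.symm.trans_lt (h1.self_of_nhds.2 h0 hr hδ))] with y a1 a2 a3 a4 hy
  obtain ⟨t, ht, e⟩ := intermediate_value_Icc (f := fun t : ℝ => f (y + t • v)) (by linarith : -δ ≤ δ)
    (h.smooth.continuousOn.comp (by fun_prop) a1.1) ⟨a3.le, a4.le⟩
  have hC := (h.zero_iff _ (a1.1 t ht)).2 e
  have e' := (h'.zero_iff _ (a2.1 t ht)).1 hC
  rcases lt_trichotomy t 0 with h3 | rfl | h3
  · have b1 := a1.2 ht h0 h3
    have b2 := a2.2 ht h0 h3
    simp only [zero_smul, add_zero, e, e'] at b1 b2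
    exact mul_pos b1 b2
  · exact absurd (by simpa using hC) hy
  · have b1 := a1.2 h0 ht h3
    have b2 := a2.2 h0 ht h3
    simp only [zero_smul, add_zero, e, e'] at b1 b2
    exact mul_pos_of_neg_of_neg b1 b2

/-- a colouring on `U` -/
structure Cg (C U : Set E) (s : E → ℝ) : Prop where
  sign : ∀ y, s y = 1 ∨ s y = -1
  loc : ∀ y ∈ U, y ∉ C → ∀ᶠ y' in 𝓝 y, s y' = s y
  col : ∀ p ∈ U, p ∈ C → LocCol C s p

theorem Cg.mono (h : Cg C U s) (hU : U' ⊆ U) : Cg C U' s :=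
  ⟨h.sign, fun y hy => h.loc y (hU hy), fun y hy => h.col y (hU hy)⟩

theorem Cg.neg (h : Cg C U s) : Cg C U (-s) :=
  ⟨fun y => (h.sign y).symm.imp (fun e => by simp [e]) fun e => by simp [e],
    fun y hy hC => (h.loc y hy hC).mono fun _ e => congrArg Neg.neg e, fun y hy hC => col_neg (h.col y hy hC)⟩

theorem Cg.freq (h : Cg C U s) (hp : p ∈ U) : ∃ᶠ y in 𝓝 p, y ∉ C := by
  by_cases hC : p ∈ C
  · obtain ⟨f, U, h1, -⟩ := h.col p hp hC
    exact loc_freq h1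
  · exact ((frequently_pure (p := fun y => y ∉ C)).2 hC).filter_mono (pure_le_nhds p)

theorem Cg.ne (h : Cg C U s) (y : E) : s y ≠ -s y := by rcases h.sign y with e | e <;> norm_num [e]

theorem Cg.ev (h : Cg C U s) (h' : Cg C U s') (hp : p ∈ U) :
    (∀ᶠ y in 𝓝 p, y ∉ C → s y = s' y) ∨ ∀ᶠ y in 𝓝 p, y ∉ C → s y = -s' y := by
  by_cases hC : p ∈ C
  · obtain ⟨f, V, h1, h2⟩ := h.col p hp hC
    have key : ∀ {s' : E → ℝ} (f' V'), Cg C U s' → LocAt C p f' V' → (∀ y ∈ V', y ∉ C → 0 < s' y * f' y) →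
        ∀ v, 0 < ⟪gradient f p, v⟫ → 0 < ⟪gradient f' p, v⟫ → ∀ᶠ y in 𝓝 p, y ∉ C → s y = s' y := by
      intro s' f' V' h' h1' h2' v hv hv'
      filter_upwards [same_sign h1 h1' hC hv hv', h1.isOpen.mem_nhds h1.mem, h1'.isOpen.mem_nhds h1'.mem]
        with y a1 a2 a3 hy
      have b1 := a1 hy
      have b2 := h2 y a2 hy
      have b3 := h2' y a3 hy
      rcases h.sign y with e | e <;> rcases h'.sign y with e' | e' <;> rw [e] at b2 ⊢ <;>
        rw [e'] at b3 ⊢ <;> nlinarith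
    obtain ⟨f', V', h1', h2'⟩ := h'.col p hp hC
    obtain ⟨v, hv, hv'⟩ : ∃ v, 0 < ⟪gradient f p, v⟫ ∧ ⟪gradient f' p, v⟫ ≠ 0 := by
      by_cases h0 : ⟪gradient f' p, gradient f p⟫ = 0
      · refine ⟨gradient f p + gradient f' p, ?_, ?_⟩
        · rw [inner_add_right, real_inner_comm (gradient f' p), h0, add_zero]
          exact real_inner_self_pos.2 (h1.grad_ne p h1.mem)
        · rw [inner_add_right, h0, zero_add]
          exact inner_self_ne_zero.2 (h1'.grad_ne p h1'.mem)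
      · exact ⟨_, real_inner_self_pos.2 (h1.grad_ne p h1.mem), h0⟩
    rcases hv'.lt_or_gt with h3 | h3
    · refine Or.inr (key (-f') V' h'.neg (loc_neg h1') (fun y hy hC => by simpa using h2' y hy hC) v hv ?_)
      rw [inner_gradient_left] at h3 ⊢
      simpa [fderiv_neg] using h3
    · exact Or.inl (key f' V' h' h1' h2' v hv h3)
  · have : s p = s' p ∨ s p = -s' p := by
      rcases h.sign p with e | e <;> rcases h'.sign p with e' | e' <;> simp [e, e']
    refine this.imp (fun e => ?_) fun e => ?_ <;>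
      filter_upwards [h.loc p hp hC, h'.loc p hp hC] with y a1 a2 _ <;> rw [a1, a2, e]

/-- two colourings of a connected set agree up to sign -/
theorem Cg.eq_or (h : Cg C U s) (h' : Cg C U s') (hU : IsPreconnected U) :
    (∀ y ∈ U, y ∉ C → s y = s' y) ∨ ∀ y ∈ U, y ∉ C → s y = -s' y := by
  refine (isPreconnected_iff_subset_of_disjoint.1 hU {p | ∀ᶠ y in 𝓝 p, y ∉ C → s y = s' y}
    {p | ∀ᶠ y in 𝓝 p, y ∉ C → s y = -s' y} isOpen_setOfPred_eventually_nhds
    isOpen_setOfPred_eventually_nhds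
    (fun p hp => h.ev h' hp) (eq_empty_of_forall_notMem ?_)).imp (fun e y hy => (e hy).self_of_nhds)
    fun e y hy => (e hy).self_of_nhds
  rintro p ⟨hp, h1, h2⟩
  obtain ⟨y, hy, a1, a2⟩ := ((h.freq hp).and_eventually (Filter.Eventually.and h1 h2)).exists
  exact h'.ne y ((a1 hy).symm.trans (a2 hy))

/-- gluing colourings of open sets with a common point and connected intersections -/
theorem glue (hC : IsClosed C) {S : Set (Set E)} {x : E} (ho : ∀ U ∈ S, IsOpen U) (hx : ∀ U ∈ S, x ∈ U)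
    (hc : ∀ U ∈ S, ∀ V ∈ S, U ≠ V → IsPreconnected (U ∩ V)) (h : ∀ U ∈ S, ∃ s, Cg C U s) :
    ∃ s, Cg C (⋃₀ S) s := by
  classical
  rcases S.eq_empty_or_nonempty with rfl | ⟨U₀, h0⟩
  · exact ⟨fun _ => 1, fun _ => Or.inl rfl, by simp, by simp⟩
  obtain ⟨s₀, hs₀⟩ := h U₀ h0
  have h1 : ∀ U ∈ S, ∃ s, Cg C U s ∧ ∀ y ∈ U ∩ U₀, y ∉ C → s y = s₀ y := fun U hU => by
    rcases eq_or_ne U U₀ with rfl | hne
    · exact ⟨s₀, hs₀, fun _ _ _ => rfl⟩
    obtain ⟨s, hs⟩ := h U hU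
    rcases (hs.mono inter_subset_left).eq_or (hs₀.mono inter_subset_right) (hc U hU U₀ h0 hne) with e | e
    · exact ⟨s, hs, e⟩
    · exact ⟨-s, hs.neg, fun y hy hC => neg_eq_iff_eq_neg.2 (e y hy hC)⟩
  choose! s hs hs' using h1
  have h2 : ∀ U ∈ S, ∀ V ∈ S, ∀ y ∈ U ∩ V, y ∉ C → s U y = s V y := fun U hU V hV => by
    rcases eq_or_ne U V with rfl | hne
    · exact fun _ _ _ => rfl
    refine (((hs U hU).mono inter_subset_left).eq_or ((hs V hV).mono inter_subset_right)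
      (hc U hU V hV hne)).resolve_right fun e => ?_
    obtain ⟨y, hy, a1, a2, a3⟩ := ((hs₀.freq (hx _ h0)).and_eventually ((ho U hU).eventually_mem (hx U hU) |>.and
      ((ho V hV).eventually_mem (hx V hV) |>.and ((ho _ h0).eventually_mem (hx _ h0))))).exists
    have := e y ⟨a1, a2⟩ hy
    rw [hs' U hU y ⟨a1, a3⟩ hy, hs' V hV y ⟨a2, a3⟩ hy] at this
    exact hs₀.ne y this
  obtain ⟨t, ht⟩ : ∃ t : E → ℝ, t = fun y => if h : y ∈ ⋃₀ S then s h.choose y else 1 := ⟨_, rfl⟩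
  have h3 : ∀ U ∈ S, ∀ y ∈ U, y ∉ C → t y = s U y := fun U hU y hy hC => by
    have hm : y ∈ ⋃₀ S := ⟨U, hU, hy⟩
    simp only [ht, dif_pos hm]
    exact h2 _ hm.choose_spec.1 U hU y ⟨hm.choose_spec.2, hy⟩ hC
  refine ⟨t, fun y => ?_, ?_, ?_⟩
  · simp only [ht]
    split_ifs with hm
    exacts [(hs _ hm.choose_spec.1).sign y, Or.inl rfl]
  · rintro y ⟨U, hU, hy⟩ hyC
    filter_upwards [(hs U hU).loc y hy hyC, (ho U hU).mem_nhds hy, hC.isOpen_compl.mem_nhds hyC] with z a1 a2 a3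
    rw [h3 U hU z a2 a3, h3 U hU y hy hyC, a1]
  · rintro y ⟨U, hU, hy⟩ hyC
    exact col_congr ((hs U hU).col y hy hyC) (((ho U hU).eventually_mem hy).mono (h3 U hU))

theorem glue₂ (hC : IsClosed C) {x : E} (ho : IsOpen U) (ho' : IsOpen U') (hx : x ∈ U ∩ U')
    (hc : IsPreconnected (U ∩ U')) (h : ∃ s, Cg C U s) (h' : ∃ s, Cg C U' s) : ∃ s, Cg C (U ∪ U') s := by
  rw [← sUnion_pair]
  refine glue hC (x := x) (by simp [ho, ho']) (by simp [hx.1, hx.2]) ?_ (by simp [h, h'])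
  rintro _ (rfl | rfl) _ (rfl | rfl) hne
  exacts [absurd rfl hne, hc, inter_comm _ _ ▸ hc, absurd rfl hne]

theorem exists_ball (hC : IsClosed C) (h : p ∈ C → ∃ f U, LocAt C p f U) :
    ∃ r > 0, ∃ s, Cg C (ball p r) s := by
  by_cases hp : p ∈ C
  · obtain ⟨f, U, h⟩ := h hp
    obtain ⟨r, hr, hU⟩ := Metric.isOpen_iff.1 h.isOpen p h.mem
    refine ⟨r, hr, fun y => if 0 < f y then 1 else -1, Cg.mono ⟨fun y => ?_, fun y hy hyC => ?_, fun q hq _ =>
      ⟨f, U, { h with mem := hq }, fun y hy hyC => ?_⟩⟩ hU⟩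
    · split_ifs <;> simp
    · have hc := h.smooth.continuousOn.continuousAt (h.isOpen.mem_nhds hy)
      rcases lt_or_gt_of_ne (mt (h.zero_iff y hy).2 hyC) with h1 | h1
      · filter_upwards [hc.eventually_lt continuousAt_const h1] with z hz
        rw [if_neg hz.not_gt, if_neg h1.not_gt]
      · filter_upwards [continuousAt_const.eventually_lt hc h1] with z hz
        rw [if_pos hz, if_pos h1]
    · rcases lt_or_gt_of_ne (mt (h.zero_iff y hy).2 hyC) with h1 | h1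
      · simpa [h1.not_gt] using h1
      · simp [h1]
  · obtain ⟨r, hr, hU⟩ := Metric.isOpen_iff.1 hC.isOpen_compl p hp
    exact ⟨r, hr, fun _ => 1, fun _ => Or.inl rfl, fun _ _ _ => Eventually.of_forall fun _ => rfl,
      fun q hq hqC => absurd hqC (hU hq)⟩

/-- continuation along a segment -/
theorem exists_tube (hC : IsClosed C) {x y : E} (h : ∀ p ∈ segment ℝ x y, p ∈ C → ∃ f U, LocAt C p f U) :
    ∃ U, IsOpen U ∧ Convex ℝ U ∧ x ∈ U ∧ y ∈ U ∧ ∃ s, Cg C U s := by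
  obtain ⟨γ, hγ⟩ : ∃ γ : ℝ →ᵃ[ℝ] E, γ = AffineMap.lineMap x y := ⟨_, rfl⟩
  have hγc : Continuous γ := γ.continuous_of_finiteDimensional
  obtain ⟨T, hT⟩ : ∃ T : ℝ → Prop, T = fun t => ∃ U, IsOpen U ∧ Convex ℝ U ∧ x ∈ U ∧ γ t ∈ U ∧ ∃ s, Cg C U s :=
    ⟨_, rfl⟩
  have hx : γ 0 = x := by simp [hγ]
  have hb : ∀ t ∈ Icc (0 : ℝ) 1, ∃ r > 0, ∃ s, Cg C (ball (γ t) r) s := fun t ht =>
    exists_ball hC (h _ (segment_eq_image_lineMap ℝ x y ▸ ⟨t, ht, by rw [hγ]⟩))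
  have key := isPreconnected_Icc.induction₂' (fun t t' => T t → T t') (fun t₀ h0 => ?_)
    (fun _ _ _ _ _ _ a b c => b (a c)) (left_mem_Icc.2 zero_le_one) (right_mem_Icc.2 zero_le_one)
  · obtain ⟨r, hr, hs⟩ := hb 0 (left_mem_Icc.2 zero_le_one)
    simpa [hT, hγ] using key (hT ▸ ⟨_, isOpen_ball, convex_ball _ _, hx ▸ mem_ball_self hr, mem_ball_self hr, hs⟩)
  obtain ⟨r, hr, hs⟩ := hb t₀ h0
  have step : ∀ t ∈ Icc (0 : ℝ) 1, ∀ t' ∈ Icc (0 : ℝ) 1, γ t ∈ ball (γ t₀) r → γ t' ∈ ball (γ t₀) r →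
      T t → T t' := by
    subst hT
    rintro t ht t' ht' a1 a2 ⟨U, b1, b2, b3, b4, b5⟩
    obtain ⟨s, hs⟩ := glue₂ hC b1 isOpen_ball ⟨b4, a1⟩ (b2.inter (convex_ball _ _)).isPreconnected b5 hs
    obtain ⟨δ, hδ, h1⟩ := (isCompact_Icc.image hγc).exists_thickening_subset_open (b1.union isOpen_ball)
      (show γ '' Icc 0 t' ⊆ U ∪ ball (γ t₀) r from by
        rintro _ ⟨τ, hτ, rfl⟩
        rcases le_total τ t with h2 | h2
        · exact Or.inl ((b2.affine_preimage γ).ordConnected.out (show γ 0 ∈ U from hx ▸ b3) b4 ⟨hτ.1, h2⟩)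
        · exact Or.inr (((convex_ball _ _).affine_preimage γ).ordConnected.out a1 a2 ⟨h2, hτ.2⟩))
    exact ⟨_, isOpen_thickening, ((convex_Icc _ _).affine_image γ).thickening δ,
      self_subset_thickening hδ _ ⟨0, left_mem_Icc.2 ht'.1, hx⟩,
      self_subset_thickening hδ _ ⟨t', right_mem_Icc.2 ht'.1, rfl⟩, s, hs.mono h1⟩
  filter_upwards [self_mem_nhdsWithin, nhdsWithin_le_nhds (hγc.continuousAt.preimage_mem_nhds
    (ball_mem_nhds (γ t₀) hr))] with t ht h1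
  exact ⟨step _ h0 _ ht (mem_ball_self hr) h1, step _ ht _ h0 h1 (mem_ball_self hr)⟩

/-- the complement of a ray -/
theorem exists_slit (hC : IsClosed C) (h : ∀ p ∈ C, p ≠ 0 → ∃ f U, LocAt C p f U) {e : E} (he : e ≠ 0) :
    ∃ s, Cg C (((ℝ ∙ e : Submodule ℝ E) : Set E) ∩ {y | ⟪e, y⟫ ≤ 0})ᶜ s := by
  obtain ⟨s, hs⟩ := glue hC (S := {U | IsOpen U ∧ Convex ℝ U ∧ e ∈ U ∧ ∃ s, Cg C U s}) (x := e)
    (fun U hU => hU.1) (fun U hU => hU.2.2.1) (fun U hU V hV _ => (hU.2.1.inter hV.2.1).isPreconnected)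
    fun U hU => hU.2.2.2
  refine ⟨s, hs.mono fun y hy => ?_⟩
  obtain ⟨U, a1, a2, a3, a4, a5⟩ := exists_tube hC (x := e) (y := y) fun p hp hpC => h p hpC (by
    rintro rfl
    obtain ⟨a, b, ha, hb, hab, h0⟩ := hp
    have hb0 : b ≠ 0 := by
      rintro rfl
      rw [add_zero] at hab
      exact he (by simpa [hab] using h0)
    have e1 : y = -(a / b) • e := by
      rw [← smul_right_inj hb0, smul_smul, eq_neg_of_add_eq_zero_right h0, ← neg_smul]
      congr 1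
      field_simp
    refine hy ⟨Submodule.mem_span_singleton.2 ⟨_, e1.symm⟩, ?_⟩
    rw [e1, mem_ofPred_eq, real_inner_smul_right]
    exact mul_nonpos_of_nonpos_of_nonneg (neg_nonpos.2 (by positivity)) real_inner_self_nonneg)
  exact ⟨U, ⟨a1, a2, a3, a5⟩, a4⟩

theorem jb (hE : 3 ≤ finrank ℝ E) (hC : CCone C) (h : ∀ p ∈ C, p ≠ 0 → ∃ f U, LocAt C p f U) :
    ∃ s, Col C s ∧ ∀ p ∈ C, p ≠ 0 → LocCol C s p := by
  have : Nontrivial E := Module.nontrivial_of_finrank_pos (R := ℝ) (by omega)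
  obtain ⟨e, he⟩ := exists_ne (0 : E)
  have ho : ∀ e : E, IsOpen (((ℝ ∙ e : Submodule ℝ E) : Set E) ∩ {y | ⟪e, y⟫ ≤ 0})ᶜ := fun e =>
    ((Submodule.closed_of_finiteDimensional _).inter (isClosed_le (by fun_prop) continuous_const)).isOpen_compl
  have hc : IsConnected ((((ℝ ∙ e : Submodule ℝ E) : Set E) ∩ {y | ⟪e, y⟫ ≤ 0})ᶜ ∩
      (((ℝ ∙ (-e) : Submodule ℝ E) : Set E) ∩ {y | ⟪-e, y⟫ ≤ 0})ᶜ) := by
    rw [← compl_union, ← Set.neg_singleton, Submodule.span_neg, ← inter_union_distrib_left,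
      inter_eq_left.2 fun y _ => by simpa using le_total _ _]
    refine isConnected_compl_of_one_lt_codim ?_
    have h1 := (ℝ ∙ e).finrank_quotient_add_finrank
    rw [finrank_span_singleton he] at h1
    rw [← finrank_eq_rank]
    exact_mod_cast (by omega : 1 < finrank ℝ (E ⧸ (ℝ ∙ e)))
  obtain ⟨s, hs⟩ := glue₂ hC.closed (ho e) (ho (-e)) hc.nonempty.some_mem hc.isPreconnected
    (exists_slit hC.closed h he) (exists_slit hC.closed h (neg_ne_zero.2 he))
  have hs := hs.mono (U' := {0}ᶜ) fun y hy => by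
    by_contra h1
    rw [← compl_inter, notMem_compl_iff] at h1
    obtain ⟨⟨h2, h3⟩, -, h4⟩ := h1
    obtain ⟨a, rfl⟩ := Submodule.mem_span_singleton.1 h2
    have h5 : ⟪e, a • e⟫ = 0 := le_antisymm h3 (by simpa using h4)
    rw [real_inner_smul_right, mul_eq_zero, inner_self_eq_zero] at h5
    exact hy (by simp [h5.resolve_right he])
  exact ⟨s, ⟨hs.sign, fun y hy => hs.loc y (fun h0 => hy (h0 ▸ hC.zero_mem)) hy⟩, fun p hp h0 => hs.col p h0 hp⟩

end Crest.Agent.R246.J2
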