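import Crest.Agent.R246.Defs

/-! Row 246, block J2: stationary unions of rays in the plane. -/

set_option autoImplicit false
set_option linter.unusedSectionVars false

open MeasureTheory Metric Filter Topology Set Module
open scoped RealInnerProductSpace Real

noncomputable section

namespace Crest.Agent.R246.J2

variable {E : Type} [NormedAddCommGroup E] [InnerProductSpace ℝ E] [FiniteDimensional ℝ E]
  [MeasurableSpace E] [BorelSpace E] {C : Set E} {ψ : E → ℝ} {u v w : E}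

/-- open ray -/
def ray (u : E) : Set E := (fun t : ℝ => t • u) '' Ioi 0

theorem ray_iso (hu : ‖u‖ = 1) : Isometry fun t : ℝ => t • u :=
  Isometry.of_dist_eq fun a b => by rw [dist_eq_norm, ← sub_smul, norm_smul, hu, mul_one, dist_eq_norm]

theorem ray_emb (hu : ‖u‖ = 1) : MeasurableEmbedding fun t : ℝ => t • u :=
  (ray_iso hu).isClosedEmbedding.measurableEmbedding

theorem ray_restrict (hu : ‖u‖ = 1) : (μHE[1] : Measure E).restrict (ray u) =
    (volume.restrict (Ioi 0)).map fun t : ℝ => t • u := by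
  have h1 := InnerProductSpace.euclideanHausdorffMeasure_eq_volume (V := ℝ)
  rw [finrank_self] at h1
  have h2 := (ray_emb hu).restrict_map (μHE[1] : Measure ℝ) (ray u)
  rwa [(ray_iso hu).map_euclideanHausdorffMeasure, ray,
    Measure.restrict_restrict_of_subset (image_subset_range _ _), h1,
    preimage_image_eq _ (ray_iso hu).injective] at h2

theorem integral_rays {F : Finset E} (hF : ∀ u ∈ F, ‖u‖ = 1) {g : E → ℝ}
    (hg : ∀ u ∈ F, IntegrableOn g (ray u) μHE[1]) :
    ∫ y in ⋃ u ∈ F, ray u, g y ∂μHE[1] = ∑ u ∈ F, ∫ t in Ioi (0 : ℝ), g (t • u) := by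
  rw [integral_biUnion_finset F (s := ray) (fun u hu => (ray_emb (hF u hu)).measurableSet_image.2 measurableSet_Ioi) ?_ hg]
  · exact Finset.sum_congr rfl fun u hu => by rw [ray_restrict (hF u hu), (ray_emb (hF u hu)).integral_map]
  · refine fun u hu v hv huv => disjoint_left.2 ?_
    rintro _ ⟨a, ha, rfl⟩ ⟨b, hb, e⟩
    have h1 := congrArg norm e
    simp only [norm_smul, hF u hu, hF v hv, mul_one, Real.norm_of_nonneg (le_of_lt ha),
      Real.norm_of_nonneg (le_of_lt hb)] at h1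
    subst h1
    exact huv (smul_right_injective E (ne_of_gt ha) e).symm

theorem card_le (hC : CCone C) (hi : Integrable (gk 1 0 1) (ar 1 C)) {F : Finset E}
    (hF : ∀ u ∈ F, ‖u‖ = 1 ∧ u ∈ C) : (F.card : ℝ) / 2 ≤ Th 1 C := by
  have h1 : ∀ u ∈ F, ray u ⊆ C := fun u hu => by
    rintro _ ⟨t, ht, rfl⟩
    exact hC.smul_mem t ht u (hF u hu).2
  refine le_trans ?_ (setIntegral_mono_set hi (Eventually.of_forall fun y => by unfold gk; positivity)
    (iUnion₂_subset h1).eventuallyLE)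
  rw [integral_rays (fun u hu => (hF u hu).1) fun u hu => IntegrableOn.mono_set hi (h1 u hu),
    Finset.sum_congr rfl (g := fun _ => (1 / 2 : ℝ)) fun u hu => ?_]
  · simp [div_eq_mul_inv]
  have e : ∀ t : ℝ, gk 1 0 1 (t • u) = (√(2 * π))⁻¹ * Real.exp (-(1 / 2) * t ^ 2) := fun t => by
    simp only [gk, sub_zero, norm_smul, (hF u hu).1, mul_one, pow_one, Real.norm_eq_abs, sq_abs]
    congr 2
    ring
  simp only [e]
  rw [integral_const_mul, integral_gaussian_Ioi, show π / (1 / 2) = 2 * π by ring]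
  have := Real.pi_pos
  field_simp

/-- the rays of a stationary cone are balanced -/
theorem balanced (hC : CCone C) {V : Measure (E × E)} (hV : Stat V) (hc : VCone V) (har : V.fst = ar 1 C)
    {F : Finset E} (hF : ∀ u, u ∈ F ↔ ‖u‖ = 1 ∧ u ∈ C) : ∑ u ∈ F, u = 0 := by
  obtain ⟨g, hg⟩ : ∃ g : ℝ → ℝ, g = fun s => Real.smoothTransition (1 - s) := ⟨_, rfl⟩
  have g1 : ContDiff ℝ 1 g := hg ▸ Real.smoothTransition.contDiff.comp (by fun_prop)
  have g0 : ∀ s, 1 ≤ s → g s = 0 := fun s hs => hg ▸ Real.smoothTransition.zero_of_nonpos (by linarith)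
  have k1 : ContDiff ℝ 1 fun t : ℝ => g (t ^ 2) := g1.comp (by fun_prop)
  have k2 : HasCompactSupport fun t : ℝ => g (t ^ 2) := HasCompactSupport.intro (isCompact_closedBall 0 1)
    fun t ht => g0 _ (by simpa using (not_le.1 (mt mem_closedBall_zero_iff.2 ht)).le)
  have k3 : ∀ t : ℝ, deriv (fun t : ℝ => g (t ^ 2)) t = deriv g (t ^ 2) * (2 * t) := fun t => by
    simpa [Function.comp_def] using ((g1.differentiable one_ne_zero _).hasDerivAt.comp t (hasDerivAt_pow 2 t)).deriv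
  refine ext_inner_right ℝ fun a => ?_
  have h1 := hV (fun y => g (‖y‖ ^ 2) • a) ((g1.comp (contDiff_norm_sq ℝ)).smul contDiff_const)
    (HasCompactSupport.intro (isCompact_closedBall 0 1) fun y hy => by
      rw [g0 _ (one_le_pow₀ (not_le.1 (mt mem_closedBall_zero_iff.2 hy)).le), zero_smul])
  have h2 : ∀ᵐ z ∂V, divT (fun y => g (‖y‖ ^ 2) • a) z = deriv g (‖z.1‖ ^ 2) * (2 * ⟪z.1, a⟫) := by
    filter_upwards [hc] with z hz
    have := ((g1.differentiable one_ne_zero _).hasDerivAt.comp_hasFDerivAt z.1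
      (hasStrictFDerivAt_norm_sq z.1).hasFDerivAt).smul_const a
    rw [divT, show fderiv ℝ (fun y => g (‖y‖ ^ 2) • a) z.1 = _ from this.fderiv, trc]
    have e : ∀ L : E →L[ℝ] ℝ, LinearMap.trace ℝ E (L.smulRight a : E →L[ℝ] E) = L a := fun L =>
      LinearMap.trace_smulRight (L : E →ₗ[ℝ] ℝ) a
    rw [e]
    simp [real_inner_comm z.2, hz]
  have φc : Continuous fun y : E => deriv g (‖y‖ ^ 2) * (2 * ⟪y, a⟫) :=
    ((g1.continuous_deriv le_rfl).comp (by fun_prop)).mul (by fun_prop)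
  have e : ∀ u ∈ F, (fun t : ℝ => deriv g (‖t • u‖ ^ 2) * (2 * ⟪t • u, a⟫)) =
      fun t => deriv (fun t : ℝ => g (t ^ 2)) t * ⟪u, a⟫ := fun u hu => funext fun t => by
    rw [k3, norm_smul, ((hF u).1 hu).1, mul_one, Real.norm_eq_abs, sq_abs, real_inner_smul_left]
    ring
  rw [integral_congr_ae h2, ← integral_map (φ := Prod.fst) measurable_fst.aemeasurable φc.aestronglyMeasurable,
    ← Measure.fst, har, ar, setIntegral_eq_of_subset_of_forall_sdiff_eq_zero (s := ⋃ u ∈ F, ray u)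
      hC.closed.measurableSet, integral_rays fun u hu => ((hF u).1 hu).1,
      Finset.sum_congr rfl fun u hu => by
        rw [e u hu, integral_mul_const, k2.integral_Ioi_deriv_eq k1]] at h1
  · simpa [hg, sum_inner] using h1
  · intro u hu
    rw [IntegrableOn, ray_restrict ((hF u).1 hu).1, (ray_emb ((hF u).1 hu).1).integrable_map_iff]
    rw [Function.comp_def, e u hu]
    exact (((k1.continuous_deriv le_rfl).integrable_of_hasCompactSupport k2.deriv).mul_const _).integrableOn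
  · refine iUnion₂_subset fun u hu => ?_
    rintro _ ⟨t, ht, rfl⟩
    exact hC.smul_mem t ht u ((hF u).1 hu).2
  · rintro y ⟨hy, h⟩
    rcases eq_or_ne y 0 with rfl | h0
    · simp
    · have hn := norm_pos_iff.2 h0
      exact (h (mem_iUnion₂.2 ⟨‖y‖⁻¹ • y, (hF _).2 ⟨norm_smul_inv_norm h0,
        hC.smul_mem _ (inv_pos.2 hn) y hy⟩, ‖y‖, hn, smul_inv_smul₀ hn.ne' y⟩)).elim

theorem flat_of_span (hE : finrank ℝ E = 2) (hC : CCone C) (h : ∀ v, ‖v‖ = 1 → v ∈ C → v ∈ ℝ ∙ u) :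
    Flat C := by
  have h1 := Submodule.finrank_add_finrank_orthogonal (ℝ ∙ u)
  have h2 : finrank ℝ (ℝ ∙ u) ≤ 1 := (finrank_span_le_card _).trans (by simp)
  obtain ⟨e, he, h0⟩ := Submodule.exists_mem_ne_zero_of_ne_bot (p := (ℝ ∙ u)ᗮ) fun h3 => by
    rw [h3, finrank_bot] at h1
    omega
  refine ⟨‖e‖⁻¹ • e, norm_smul_inv_norm h0, fun y hy => ?_⟩
  rcases eq_or_ne y 0 with rfl | hy0
  · simp
  have hn := norm_pos_iff.2 hy0
  have h3 := Submodule.inner_left_of_mem_orthogonal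
    (h _ (norm_smul_inv_norm hy0) (hC.smul_mem _ (inv_pos.2 hn) y hy)) he
  rw [real_inner_smul_right, mul_eq_zero] at h3
  rw [real_inner_smul_left, h3.resolve_left (inv_ne_zero hn.ne'), mul_zero]

theorem slopes {f : ℝ → ℝ} {a b : ℝ} (hf : Continuous f) (h0 : f 0 = 0) (h1 : f 1 = 0)
    (h : ∀ t ∈ Ioo (0 : ℝ) 1, f t ≠ 0) (ha : HasDerivAt f a 0) (hb : HasDerivAt f b 1) : a * b ≤ 0 := by
  have key : ∀ {f : ℝ → ℝ} {a b : ℝ}, f 0 = 0 → f 1 = 0 → (∀ t ∈ Ioo (0 : ℝ) 1, 0 < f t) → HasDerivAt f a 0 →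
      HasDerivAt f b 1 → a * b ≤ 0 := fun {f a b} h0 h1 h ha hb => by
    refine mul_nonpos_of_nonneg_of_nonpos (ge_of_tendsto ha.tendsto_slope_zero_right ?_)
      (le_of_tendsto hb.tendsto_slope_zero_left ?_)
    · filter_upwards [Ioo_mem_nhdsGT zero_lt_one] with t ht
      rw [zero_add, h0, sub_zero]
      exact mul_nonneg (inv_pos.2 ht.1).le (h t ht).le
    · filter_upwards [Ioo_mem_nhdsLT (neg_lt_zero.2 zero_lt_one)] with t ht
      rw [h1, sub_zero]
      exact mul_nonpos_of_nonpos_of_nonneg (inv_lt_zero.2 ht.2).le (h _ ⟨by linarith [ht.1], by linarith [ht.2]⟩).le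
  rcases isPreconnected_Ioo.mapsTo_Ioi_or_Iio hf.continuousOn h with h2 | h2
  · exact key h0 h1 h2 ha hb
  · simpa using key (f := -f) (by simp [h0]) (by simp [h1]) (fun t ht => neg_pos.2 (h2 ht)) ha.neg hb.neg

theorem smc_deriv (hC : SMC C ψ) {γ : ℝ → E} {t : ℝ} (hγ : HasDerivAt γ v t) (e : γ t = u) (hu : u ∈ C)
    (h0 : u ≠ 0) : HasDerivAt (fun t => ψ (γ t)) ⟪gradient ψ u, v⟫ t := by
  obtain ⟨U, h1, h2, h3, -⟩ := hC.smooth
  rw [inner_gradient_left]
  subst e
  exact ((h3.contDiffAt (h1.mem_nhds (h2 ⟨hu, h0⟩))).differentiableAt (by simp)).hasFDerivAt.comp_hasDerivAt t hγ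

theorem smc_zero (hC : SMC C ψ) (y : E) : ψ y = 0 ↔ y ∈ C := by
  rw [← abs_eq_zero, hC.abs_eq, hC.closed.mem_iff_infDist_zero ⟨0, hC.zero_mem⟩]

theorem smc_rad (hC : SMC C ψ) (hu : u ∈ C) (h0 : u ≠ 0) : ⟪gradient ψ u, u⟫ = 0 := by
  refine (smc_deriv hC (γ := fun t : ℝ => t • u) (t := 1) (by simpa using (hasDerivAt_id (1 : ℝ)).smul_const u)
    (one_smul _ _) hu h0).unique ((hasDerivAt_const _ 0).congr_of_eventuallyEq ?_)
  filter_upwards [Ioi_mem_nhds zero_lt_one] with t ht using (smc_zero hC _).2 (hC.smul_mem t ht u hu)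

theorem tri_inner (hs : u + v + w = 0) (hu : ‖u‖ = 1) (hv : ‖v‖ = 1) (hw : ‖w‖ = 1) : ⟪u, v⟫ = -1 / 2 := by
  have h1 := norm_add_sq_real u v
  rw [eq_neg_of_add_eq_zero_left hs, norm_neg, hu, hv, hw] at h1
  linarith

theorem tri (hE : finrank ℝ E = 2) (hC : SMC C ψ) (hs : u + v + w = 0)
    (h : ∀ y, ‖y‖ = 1 ∧ y ∈ C ↔ y = u ∨ y = v ∨ y = w) :
    ⟪gradient ψ u, v⟫ * ⟪gradient ψ v, w⟫ ≤ 0 ∧ ⟪gradient ψ u, v⟫ ≠ 0 := by
  obtain ⟨u1, u2⟩ := (h u).2 (by simp)
  obtain ⟨v1, v2⟩ := (h v).2 (by simp)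
  obtain ⟨w1, -⟩ := (h w).2 (by simp)
  have u0 : u ≠ 0 := norm_ne_zero_iff.1 (by simp [u1])
  have v0 : v ≠ 0 := norm_ne_zero_iff.1 (by simp [v1])
  have uv := tri_inner hs u1 v1 w1
  have vw := tri_inner (w := u) (by rw [← hs]; abel) v1 w1 u1
  have wu := tri_inner (w := v) (by rw [← hs]; abel) w1 u1 v1
  have ru := smc_rad hC u2 u0
  have rv := smc_rad hC v2 v0
  have ew : w = -(u + v) := eq_neg_of_add_eq_zero_right hs
  constructor
  · have hd : ∀ t : ℝ, HasDerivAt (fun t : ℝ => u + t • (v - u)) (v - u) t := fun t => by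
      simpa using ((hasDerivAt_id t).smul_const (v - u)).const_add u
    have h1 := slopes (f := fun t : ℝ => ψ (u + t • (v - u))) (hC.cont.comp (by fun_prop))
      (by simpa using (smc_zero hC _).2 u2) (by simpa using (smc_zero hC _).2 v2) (fun t ht h0 => ?_)
      (smc_deriv hC (hd 0) (by simp) u2 u0) (smc_deriv hC (hd 1) (by simp) v2 v0)
    · rw [ew, inner_neg_right, inner_add_right, rv]
      rw [inner_sub_right, inner_sub_right, ru, rv] at h1
      linarith
    obtain ⟨y, hy⟩ : ∃ y, y = u + t • (v - u) := ⟨_, rfl⟩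
    have a1 : ⟪w, y⟫ = -1 / 2 := by
      rw [hy, inner_add_right, real_inner_smul_right, inner_sub_right, real_inner_comm v, vw, wu]
      ring
    have a2 : ⟪u, y⟫ = 1 - 3 / 2 * t := by
      rw [hy, inner_add_right, real_inner_smul_right, inner_sub_right, uv, real_inner_self_eq_norm_sq, u1]
      ring
    have a3 : ⟪v, y⟫ = -1 / 2 + 3 / 2 * t := by
      rw [hy, inner_add_right, real_inner_smul_right, inner_sub_right, real_inner_comm u, uv,
        real_inner_self_eq_norm_sq, v1]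
      ring
    have y0 : y ≠ 0 := by
      rintro rfl
      norm_num at a1
    have hn := norm_pos_iff.2 y0
    have hz := (h _).1 ⟨norm_smul_inv_norm (𝕜 := ℝ) y0, hC.smul_mem _ (inv_pos.2 hn) y (hy ▸ (smc_zero hC _).1 h0)⟩
    simp only [RCLike.ofReal_real_eq_id, id, inv_smul_eq_iff₀ hn.ne'] at hz
    generalize ‖y‖ = r at hz hn
    clear hy
    rcases hz with rfl | rfl | rfl <;> rw [real_inner_smul_right] at a1 a2 a3
    · rw [wu] at a1
      rw [real_inner_self_eq_norm_sq, u1] at a2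
      linarith [ht.1]
    · rw [real_inner_comm, vw] at a1
      rw [real_inner_self_eq_norm_sq, v1] at a3
      linarith [ht.2]
    · rw [real_inner_self_eq_norm_sq, w1] at a1
      linarith
  · intro h0
    obtain ⟨U, -, h2, -, h3⟩ := hC.smooth
    have h4 := (linearIndependent_of_ne_zero_of_inner_eq_zero (𝕜 := ℝ) (v := ![gradient ψ u, u, v - w])
      ?_ ?_).fintype_card_le_finrank
    · simp [hE] at h4
    · refine Fin.forall_fin_succ.2 ⟨norm_ne_zero_iff.1 (by simp [h3 u (h2 ⟨u2, u0⟩)]),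
        Fin.forall_fin_two.2 ⟨u0, sub_ne_zero.2 ?_⟩⟩
      rintro rfl
      rw [real_inner_self_eq_norm_sq, v1] at vw
      norm_num at vw
    · have b1 : ⟪gradient ψ u, v - w⟫ = 0 := by
        rw [inner_sub_right, ew, inner_neg_right, inner_add_right, ru, h0]
        ring
      have b2 : ⟪u, v - w⟫ = 0 := by rw [inner_sub_right, uv, real_inner_comm, wu, sub_self]
      intro i j hij
      fin_cases i <;> fin_cases j <;> first | exact absurd rfl hij | assumption | exact inner_eq_zero_symm.1 ‹_›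

theorem k1 : StK1 E := by
  classical
  intro hE C ψ V hC hV hc har hT
  have h1 : ∀ F : Finset E, (∀ u ∈ F, ‖u‖ = 1 ∧ u ∈ C) → F.card < 4 := fun F hF => by
    have := card_le hC.toCCone (har ▸ hV.integ 0 1 one_pos) hF
    exact_mod_cast (by linarith : (F.card : ℝ) < 4)
  have h2 : {u | ‖u‖ = 1 ∧ u ∈ C}.Finite := by
    by_contra h
    obtain ⟨F, h3, h4⟩ := Set.Infinite.exists_subset_card_eq h 4
    exact (h1 F fun u hu => h3 hu).ne h4
  obtain ⟨F, hF⟩ : ∃ F : Finset E, ∀ u, u ∈ F ↔ ‖u‖ = 1 ∧ u ∈ C := ⟨_, fun u => h2.mem_toFinset⟩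
  have h3 := balanced hC.toCCone hV.stat hc har hF
  have h4 := h1 F fun u => (hF u).1
  obtain h | h | h | h : F.card = 0 ∨ F.card = 1 ∨ F.card = 2 ∨ F.card = 3 := by omega
  · refine flat_of_span (u := 0) hE hC.toCCone fun v a b => ?_
    simpa [Finset.card_eq_zero.1 h] using (hF v).2 ⟨a, b⟩
  · obtain ⟨u, rfl⟩ := Finset.card_eq_one.1 h
    exact flat_of_span (u := u) hE hC.toCCone fun v a b =>
      Finset.mem_singleton.1 ((hF v).2 ⟨a, b⟩) ▸ Submodule.mem_span_singleton_self _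
  · obtain ⟨u, w, huw, rfl⟩ := Finset.card_eq_two.1 h
    rw [Finset.sum_pair huw] at h3
    refine flat_of_span (u := u) hE hC.toCCone fun v a b => ?_
    rcases Finset.mem_insert.1 ((hF v).2 ⟨a, b⟩) with rfl | h5
    · exact Submodule.mem_span_singleton_self _
    · rw [Finset.mem_singleton.1 h5, eq_neg_of_add_eq_zero_right h3]
      exact Submodule.neg_mem _ (Submodule.mem_span_singleton_self _)
  · obtain ⟨u, v, w, a1, a2, a3, rfl⟩ := Finset.card_eq_three.1 h
    rw [Finset.sum_insert (by simp [a1, a2]), Finset.sum_pair a3, ← add_assoc] at h3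
    obtain ⟨b1, c1⟩ := tri hE hC h3 fun y => by simp [← hF]
    obtain ⟨b2, c2⟩ := tri (u := v) (v := w) (w := u) hE hC (by rw [← h3]; abel) fun y => by
      simp only [← hF, Finset.mem_insert, Finset.mem_singleton]
      tauto
    obtain ⟨b3, c3⟩ := tri (u := w) (v := u) (w := v) hE hC (by rw [← h3]; abel) fun y => by
      simp only [← hF, Finset.mem_insert, Finset.mem_singleton]
      tauto
    refine absurd (mul_nonpos_of_nonneg_of_nonpos (mul_nonneg_of_nonpos_of_nonpos b1 b2) b3) (not_le.2 ?_)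
    have := mul_self_pos.2 (mul_ne_zero (mul_ne_zero c1 c2) c3)
    linarith

end Crest.Agent.R246.J2
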