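import Crest.Agent.R246.Asm

/-! Row 246, block J2: the densities of the Clifford cones decrease with the dimension. -/

set_option autoImplicit false

open Filter Topology Set Real Crest.GeometryTopology.SphereImmersion

noncomputable section

namespace Crest.Agent.R246.J2

theorem h_le {t : ℝ} (h0 : 0 ≤ t) (h1 : t < 1 / 2) : (1 + 2 * t) * log (1 + 2 * t) - (1 - 2 * t) * log (1 - 2 * t) +
    (2 - 4 * t) * log (1 - t) - (2 + 4 * t) * log (1 + t) ≤ 0 := by
  have hd : ∀ t ∈ Ico (0 : ℝ) (1 / 2), ∃ d ≤ 0, HasDerivAt (fun t : ℝ => (1 + 2 * t) * log (1 + 2 * t) -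
      (1 - 2 * t) * log (1 - 2 * t) + (2 - 4 * t) * log (1 - t) - (2 + 4 * t) * log (1 + t)) d t := by
    rintro t ⟨h0, h1⟩
    have a1 : 0 < 1 + 2 * t := by linarith
    have a2 : 0 < 1 - 2 * t := by linarith
    have a3 : 0 < 1 - t := by linarith
    have a4 : 0 < 1 + t := by linarith
    have l : ∀ a b : ℝ, HasDerivAt (fun t : ℝ => a + b * t) b t := fun a b => by
      simpa using ((hasDerivAt_id t).const_mul b).const_add a
    have l' : ∀ a b : ℝ, HasDerivAt (fun t : ℝ => a - b * t) (-b) t := fun a b => by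
      simpa using ((hasDerivAt_id t).const_mul b).const_sub a
    refine ⟨_, ?_, (((((l 1 2).fun_mul ((l 1 2).log a1.ne')).fun_sub ((l' 1 2).fun_mul ((l' 1 2).log a2.ne'))).fun_add
      ((l' 2 4).fun_mul (((hasDerivAt_id t).const_sub 1).log a3.ne'))).fun_sub
      ((l 2 4).fun_mul (((hasDerivAt_id t).const_add 1).log a4.ne')))⟩
    have b := log_le_sub_one_of_pos (x := (1 + 2 * t) * (1 - 2 * t) / ((1 - t) ^ 2 * (1 + t) ^ 2)) (by positivity)
    rw [log_div (by positivity) (by positivity), log_mul a1.ne' a2.ne', log_mul (by positivity) (by positivity),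
      log_pow, log_pow] at b
    have e : 2 * ((1 + 2 * t) * (1 - 2 * t) / ((1 - t) ^ 2 * (1 + t) ^ 2) - 1) + ((1 + 2 * t) * (2 / (1 + 2 * t)) -
        (1 - 2 * t) * (-2 / (1 - 2 * t)) + (2 - 4 * t) * (-1 / (1 - t)) - (2 + 4 * t) * (1 / (1 + t))) =
        -(6 * t ^ 4 / ((1 - t) ^ 2 * (1 + t) ^ 2)) := by
      field_simp
      ring
    have : 0 ≤ 6 * t ^ 4 / ((1 - t) ^ 2 * (1 + t) ^ 2) := by positivity
    simp only [id]
    push_cast at b
    linarith
  choose! d hd hd' using hd
  simpa using antitoneOn_of_deriv_nonpos (convex_Ico 0 (1 / 2))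
    (fun t ht => (hd' t ht).continuousAt.continuousWithinAt)
    (fun t ht => (hd' t (interior_subset ht)).differentiableAt.differentiableWithinAt)
    (fun t ht => (hd' t (interior_subset ht)).deriv ▸ hd t (interior_subset ht))
    ⟨le_rfl, by norm_num⟩ ⟨h0, h1⟩ h0

/-- logarithm of the entropy of the sphere, up to an affine function -/
def A (x : ℝ) : ℝ := x * log x / 2 - log (Gamma ((x + 1) / 2))

theorem A_add {x : ℝ} (hx : 0 < x) :
    A (x + 2) = A x + ((x + 2) * log (x + 2) - x * log x) / 2 - log (x + 1) + log 2 := by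
  have := Gamma_pos_of_pos (s := (x + 1) / 2) (by positivity)
  rw [A, A, show (x + 2 + 1) / 2 = (x + 1) / 2 + 1 by ring, Gamma_add_one (by positivity),
    log_mul (by positivity) this.ne', log_div (by positivity) two_ne_zero]
  ring

def D (x : ℝ) : ℝ := A (x + 2) + A x - 2 * A (x + 1)

theorem D_step {x : ℝ} (hx : 0 < x) : D (x + 2) ≤ D x := by
  have h := mul_nonpos_of_nonneg_of_nonpos (by positivity : 0 ≤ x + 2) (h_le (t := 1 / (x + 2)) (by positivity)
    (one_div_lt_one_div_of_lt two_pos (by linarith)))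
  rw [show 1 + 2 * (1 / (x + 2)) = (x + 2 + 2) / (x + 2) by field_simp,
    show 1 - 2 * (1 / (x + 2)) = x / (x + 2) by field_simp; ring,
    show 1 - 1 / (x + 2) = (x + 1) / (x + 2) by field_simp; ring,
    show 1 + 1 / (x + 2) = (x + 2 + 1) / (x + 2) by field_simp,
    show 2 - 4 * (1 / (x + 2)) = 2 * x / (x + 2) by field_simp; ring,
    show 2 + 4 * (1 / (x + 2)) = (2 * x + 8) / (x + 2) by field_simp; ring] at h
  repeat rw [log_div (by positivity) (by positivity)] at h
  field_simp at h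
  rw [D, D, A_add (x := x + 2) (by positivity), show x + 2 + 1 = x + 1 + 2 by ring,
    A_add (x := x + 1) (by positivity), A_add hx, show x + 1 + 1 = x + 2 by ring,
    show x + 1 + 2 = x + 2 + 1 by ring]
  linarith

theorem D_ge {x : ℝ} (hx : 0 < x) : -(1 / (x + 1)) ≤ D x := by
  have h1 := convexOn_mul_log.2 (mem_Ici.2 (by positivity : 0 ≤ x + 2)) (mem_Ici.2 hx.le)
    (by norm_num : (0 : ℝ) ≤ 1 / 2) (by norm_num : (0 : ℝ) ≤ 1 / 2) (by norm_num)
  have h2 := convexOn_log_Gamma.2 (mem_Ioi.2 (by positivity : 0 < (x + 2) / 2))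
    (mem_Ioi.2 (by positivity : 0 < (x + 2) / 2 + 1))
    (by norm_num : (0 : ℝ) ≤ 1 / 2) (by norm_num : (0 : ℝ) ≤ 1 / 2) (by norm_num)
  have h3 := log_le_sub_one_of_pos (x := (x + 2) / (x + 1)) (by positivity)
  have g1 := Gamma_pos_of_pos (s := (x + 1) / 2) (by positivity)
  have g2 := Gamma_pos_of_pos (s := (x + 2) / 2) (by positivity)
  simp only [smul_eq_mul, Function.comp] at h1 h2
  rw [show 1 / 2 * (x + 2) + 1 / 2 * x = x + 1 by ring] at h1
  rw [show 1 / 2 * ((x + 2) / 2) + 1 / 2 * ((x + 2) / 2 + 1) = (x + 1) / 2 + 1 by ring, Gamma_add_one (by positivity),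
    Gamma_add_one (by positivity), log_mul (by positivity) g1.ne', log_mul (by positivity) g2.ne',
    log_div (by positivity) two_ne_zero, log_div (by positivity) two_ne_zero] at h2
  rw [log_div (by positivity) (by positivity), show (x + 2) / (x + 1) - 1 = 1 / (x + 1) by field_simp; ring] at h3
  rw [D, A_add hx, A, A, show x + 1 + 1 = x + 2 by ring]
  linarith

theorem D_nonneg {x : ℝ} (hx : 0 < x) : 0 ≤ D x := by
  have h : ∀ n : ℕ, D (x + 2 * n) ≤ D x := fun n => by
    induction n with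
    | zero => simp
    | succ n ih =>
      rw [show x + 2 * ((n + 1 : ℕ) : ℝ) = x + 2 * n + 2 by push_cast; ring]
      exact (D_step (by positivity)).trans ih
  refine le_of_tendsto' (by simpa only [neg_zero] using (tendsto_one_div_add_atTop_nhds_zero_nat (𝕜 := ℝ)).neg)
    fun n => le_trans ?_ ((D_ge (by positivity)).trans (h n))
  exact neg_le_neg (one_div_le_one_div_of_le (by positivity) (by linarith [n.cast_nonneg (α := ℝ)]))

theorem A_mono {k m : ℕ} (hk : 1 ≤ k) (h : k ≤ m) : A (k + 1) - A k ≤ A (m + 1) - A m := by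
  induction m, h using Nat.le_induction with
  | base => rfl
  | succ m hm ih =>
    have := D_nonneg (x := m) (Nat.cast_pos.2 (by omega))
    rw [D] at this
    rw [Nat.cast_succ, show (m : ℝ) + 1 + 1 = m + 2 by ring]
    linarith

theorem log_cliff {k l : ℕ} (hk : 1 ≤ k) (hl : 1 ≤ l) : cliffordVolume (k + l) k / unitSphereArea (k + l) =
    exp (log 2 + log π / 2 + A k + A l - A (k + l)) := by
  have k0 : (0 : ℝ) < k := Nat.cast_pos.2 hk
  have l0 : (0 : ℝ) < l := Nat.cast_pos.2 hl
  have e : ∀ j : ℕ, unitSphereArea j = exp (log 2 + (j + 1) / 2 * log π - log (Gamma ((j + 1) / 2))) := fun j => by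
    rw [exp_sub, exp_add, exp_log two_pos, exp_log (Gamma_pos_of_pos (by positivity)), unitSphereArea,
      rpow_def_of_pos pi_pos, mul_comm (log π)]
  rw [cliffordVolume, Nat.add_sub_cancel_left, e, e, e, Nat.cast_add, add_sub_cancel_left,
    rpow_def_of_pos (by positivity), rpow_def_of_pos (by positivity), log_div k0.ne' (by positivity),
    log_div l0.ne' (by positivity)]
  simp only [← exp_add, ← exp_sub, A]
  congr 1
  ring

theorem cl_le {m k : ℕ} (h1 : 1 ≤ k) (h2 : k < m) : cl (m + 1) ≤ cliffordVolume m k / unitSphereArea m := by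
  rw [cl, if_neg (by omega), Nat.add_sub_cancel]
  refine csInf_le (Finite.bddBelow (((finite_Iio m).image fun k => cliffordVolume m k / unitSphereArea m).subset ?_))
    ⟨k, h1, h2, rfl⟩
  rintro x ⟨k, -, h, rfl⟩
  exact ⟨k, h, rfl⟩

theorem cl_three : cl 3 ≤ 2 := by
  refine (cl_le (m := 2) le_rfl one_lt_two).trans ?_
  have h1 : unitSphereArea 1 = 2 * π := by simp [unitSphereArea]
  have h2 : unitSphereArea 2 = 4 * π := by
    rw [unitSphereArea, show (((2 : ℕ) : ℝ) + 1) / 2 = 1 / 2 + 1 by norm_num, Gamma_add_one (by norm_num),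
      Gamma_one_half_eq, rpow_add pi_pos, rpow_one, ← sqrt_eq_rpow]
    have := sqrt_pos.2 pi_pos
    field_simp
    norm_num
  have h3 : (1 / 2 : ℝ) ^ (1 / 2 : ℝ) * (1 / 2 : ℝ) ^ (1 / 2 : ℝ) = 1 / 2 := by
    rw [← rpow_add (by norm_num)]
    norm_num
  rw [cliffordVolume, h2, div_le_iff₀ (by positivity), Nat.add_one_sub_one, h1, Nat.cast_one, Nat.cast_ofNat,
    show (2 : ℝ) - 1 = 1 by norm_num, mul_mul_mul_comm, h3]
  nlinarith [pi_pos, pi_le_four]

theorem num : StNum := by
  have h : ∀ d, cl (d + 1) ≤ cl d := fun d => by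
    obtain h | rfl | h : d ≤ 1 ∨ d = 2 ∨ 3 ≤ d := by omega
    · rw [cl, cl, if_pos (by omega), if_pos (by omega)]
    · exact cl_three.trans_eq (by simp [cl])
    obtain ⟨m, rfl⟩ : ∃ m, d = m + 1 := ⟨d - 1, by omega⟩
    obtain ⟨k, h1, h2, e⟩ := exists_cl (m := m) (by omega)
    obtain ⟨l, rfl⟩ : ∃ l, m = k + l := ⟨m - k, by omega⟩
    refine (cl_le (k := k + 1) (by omega) (by omega)).trans ?_
    have := A_mono h1 h2.le
    rw [e, Nat.add_right_comm, log_cliff (by omega) (by omega), log_cliff h1 (by omega), exp_le_exp]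
    push_cast at this ⊢
    rw [add_right_comm (k : ℝ)]
    linarith
  exact ⟨h, fun d => (antitone_nat_of_succ_le h (Nat.zero_le d)).trans_eq (by simp [cl])⟩

end Crest.Agent.R246.J2
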