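import Crest.Agent.R246.J2.JB
import Crest.Agent.R246.J2.K1
import Crest.Agent.R246.J2.Num

/-! Row 246, block J2: final statements (see `R246/Blueprint.lean`). -/

set_option autoImplicit false

namespace Crest.Agent.R246

theorem stJB : All fun E => StJB E := fun _ _ _ _ _ _ hE _ hC h => J2.jb hE hC h

theorem stNum : StNum := J2.num

theorem stK1 : All fun E => StK1 E := fun _ _ _ _ _ _ => J2.k1

end Crest.Agent.R246
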